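import Vale.Agent.P235.R2.H318.Chart

/-!
Cutting a finite metric space open along a line: the bump functions (helper318).
-/

namespace Vale.Agent.P235.H318

open Finset Vale.Agent.P235

/-- the side factor -/
noncomputable def fa (E D : ℝ) : ℝ := max 0 (2 - E / D)

/-- the height factor -/
noncomputable def fc (t : ℝ) (n : ℤ) : ℝ := max 0 (2 - 2 * |t - n|)

theorem fa_nonneg (E D : ℝ) : 0 ≤ fa E D := le_max_left _ _

theorem fc_nonneg (t : ℝ) (n : ℤ) : 0 ≤ fc t n := le_max_left _ _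

theorem fa_le {E D : ℝ} (hD : 0 < D) (h : D ≤ E) : fa E D ≤ 1 := by
  unfold fa
  refine max_le (by norm_num) ?_
  have : 1 ≤ E / D := by rwa [le_div_iff₀ hD, one_mul]
  linarith

theorem fc_le (t : ℝ) (n : ℤ) : fc t n ≤ 2 := by
  unfold fc
  refine max_le (by norm_num) ?_
  have := abs_nonneg (t - n)
  linarith

theorem fa_ne {E D : ℝ} (hD : 0 < D) (h : fa E D ≠ 0) : E < 2 * D := by
  by_contra hc
  apply h
  unfold fa
  refine max_eq_left ?_
  have : 2 ≤ E / D := by rw [le_div_iff₀ hD]; linarith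
  linarith

theorem fc_ne {t : ℝ} {n : ℤ} (h : fc t n ≠ 0) : |t - n| < 1 := by
  by_contra hc
  apply h
  unfold fc
  refine max_eq_left ?_
  linarith

theorem fc_lip (s t : ℝ) (n : ℤ) : |fc s n - fc t n| ≤ 2 * |s - t| := by
  unfold fc
  refine (abs_max_sub_max_le_max _ _ _ _).trans (max_le ?_ ?_)
  · simp
  · have h1 : 2 - 2 * |s - n| - (2 - 2 * |t - n|) = 2 * (|t - n| - |s - n|) := by ring
    rw [h1, abs_mul, abs_two]
    refine mul_le_mul_of_nonneg_left ?_ (by norm_num)
    have h2 := abs_abs_sub_abs_le (t - n) (s - n)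
    have h3 : t - n - (s - n) = -(s - t) := by ring
    rwa [h3, abs_neg] at h2

/-- the side factor is Lipschitz on the scale of the distance to the line -/
theorem fa_lip {E D E' D' δ : ℝ} (hD : 0 < D) (hD' : 3 / 4 * D ≤ D') (hE : 0 ≤ E) (hE' : 0 ≤ E')
    (h1 : |E - E'| ≤ δ) (h2 : |D - D'| ≤ δ) (hδ : 0 ≤ δ) :
    |fa E D - fa E' D'| ≤ 4 * (δ / D) := by
  have hD'0 : 0 < D' := by linarith
  have hr : 0 ≤ δ / D := by positivity
  rw [abs_le] at h1 h2
  by_cases ha : E < 2 * D
  · -- denominator `D'`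
    have key : |E / D - E' / D'| ≤ 4 * (δ / D) := by
      have e : E / D - E' / D' = (E - E') / D' - (E / D) * ((D - D') / D') := by
        field_simp
        ring
      have h5 : |(E - E') / D'| ≤ δ / D' := by
        rw [abs_div, abs_of_pos hD'0]
        exact div_le_div_of_nonneg_right (abs_le.mpr h1) hD'0.le
      have h6 : |(D - D') / D'| ≤ δ / D' := by
        rw [abs_div, abs_of_pos hD'0]
        exact div_le_div_of_nonneg_right (abs_le.mpr h2) hD'0.le
      have h7 : |E / D| ≤ 2 := by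
        rw [abs_of_nonneg (by positivity), div_le_iff₀ hD]; linarith
      have h8 : |E / D * ((D - D') / D')| ≤ 2 * (δ / D') := by
        rw [abs_mul]
        exact mul_le_mul h7 h6 (abs_nonneg _) (by norm_num)
      have h9 : δ / D' ≤ 4 / 3 * (δ / D) := by
        rw [div_le_iff₀ hD'0]
        have : 4 / 3 * (δ / D) * (3 / 4 * D) = δ := by field_simp
        calc δ = 4 / 3 * (δ / D) * (3 / 4 * D) := this.symm
          _ ≤ 4 / 3 * (δ / D) * D' := mul_le_mul_of_nonneg_left hD' (by positivity)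
      rw [e]
      have h10 := abs_sub ((E - E') / D') (E / D * ((D - D') / D'))
      linarith
    unfold fa
    refine (abs_max_sub_max_le_max _ _ _ _).trans (max_le ?_ ?_)
    · simp; positivity
    · have e2 : 2 - E / D - (2 - E' / D') = -(E / D - E' / D') := by ring
      rw [e2, abs_neg]; exact key
  · by_cases ha' : E' < 2 * D'
    · have key : |E / D - E' / D'| ≤ 4 * (δ / D) := by
        have e : E / D - E' / D' = (E - E') / D + (E' / D') * ((D' - D) / D) := by
          field_simp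
          ring
        have h5 : |(E - E') / D| ≤ δ / D := by
          rw [abs_div, abs_of_pos hD]
          exact div_le_div_of_nonneg_right (abs_le.mpr h1) hD.le
        have h6 : |(D' - D) / D| ≤ δ / D := by
          rw [abs_div, abs_of_pos hD, abs_sub_comm]
          exact div_le_div_of_nonneg_right (abs_le.mpr h2) hD.le
        have h7 : |E' / D'| ≤ 2 := by
          rw [abs_of_nonneg (by positivity), div_le_iff₀ hD'0]; linarith
        have h8 : |E' / D' * ((D' - D) / D)| ≤ 2 * (δ / D) := by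
          rw [abs_mul]
          exact mul_le_mul h7 h6 (abs_nonneg _) (by norm_num)
        rw [e]
        have h10 := abs_add_le ((E - E') / D) (E' / D' * ((D' - D) / D))
        linarith
      unfold fa
      refine (abs_max_sub_max_le_max _ _ _ _).trans (max_le ?_ ?_)
      · simp; positivity
      · have e2 : 2 - E / D - (2 - E' / D') = -(E / D - E' / D') := by ring
        rw [e2, abs_neg]; exact key
    · have z1 : fa E D = 0 := by
        by_contra h
        exact ha (fa_ne hD h)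
      have z2 : fa E' D' = 0 := by
        by_contra h
        exact ha' (fa_ne hD'0 h)
      rw [z1, z2]; simp; positivity

theorem prod_diff {a b c a' b' c' A B C : ℝ} (ha' : |a'| ≤ 1) (hb : |b| ≤ 2)
    (hb' : |b'| ≤ 2) (hc : |c| ≤ 2) (hA : |a - a'| ≤ A) (hB : |b - b'| ≤ B)
    (hC : |c - c'| ≤ C) : |a * b * c - a' * b' * c'| ≤ 4 * A + 2 * B + 2 * C := by
  have e : a * b * c - a' * b' * c' = (a - a') * (b * c) + (a' * (b - b')) * c +
      (a' * b') * (c - c') := by ring
  rw [e]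
  have h1 : |(a - a') * (b * c)| ≤ A * 4 := by
    rw [abs_mul, abs_mul]
    have : |b| * |c| ≤ 2 * 2 := mul_le_mul hb hc (abs_nonneg _) (by norm_num)
    exact mul_le_mul hA (by linarith) (by positivity) ((abs_nonneg _).trans hA)
  have h2 : |a' * (b - b') * c| ≤ B * 2 := by
    rw [abs_mul, abs_mul]
    have : |a'| * |b - b'| ≤ 1 * B := mul_le_mul ha' hB (abs_nonneg _) (by norm_num)
    have h0 : 0 ≤ B := (abs_nonneg _).trans hB
    exact mul_le_mul (by linarith) hc (abs_nonneg _) h0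
  have h3 : |a' * b' * (c - c')| ≤ 2 * C := by
    rw [abs_mul, abs_mul]
    have : |a'| * |b'| ≤ 1 * 2 := mul_le_mul ha' hb' (abs_nonneg _) (by norm_num)
    exact mul_le_mul (by linarith) hC (abs_nonneg _) (by norm_num)
  have h4 := abs_add_le ((a - a') * (b * c) + a' * (b - b') * c) (a' * b' * (c - c'))
  have h5 := abs_add_le ((a - a') * (b * c)) (a' * (b - b') * c)
  linarith

/-- A finite space with a height function and two lines: `E σ` is the distance to the line
`S σ`, on which `d` is the difference of heights. -/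
structure Lines {X : Type} (d : X → X → ℝ) (h : X → ℝ) (S : Bool → Set X) (E : Bool → X → ℝ) :
    Prop where
  nonneg : ∀ x y, 0 ≤ d x y
  symm : ∀ x y, d x y = d y x
  tri : ∀ x y z, d x z ≤ d x y + d y z
  hlip : ∀ x y, |h x - h y| ≤ d x y
  line : ∀ σ, ∀ a ∈ S σ, ∀ b ∈ S σ, d a b ≤ |h a - h b|
  near : ∀ σ x, ∃ a ∈ S σ, d x a = E σ x
  le : ∀ σ x, ∀ a ∈ S σ, E σ x ≤ d x a

namespace Lines

variable {X : Type} {d : X → X → ℝ} {h : X → ℝ} {S : Bool → Set X} {E : Bool → X → ℝ}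

theorem E_nonneg (H : Lines d h S E) (σ : Bool) (x : X) : 0 ≤ E σ x := by
  obtain ⟨a, _, ha⟩ := H.near σ x
  rw [← ha]; exact H.nonneg _ _

theorem E_lip (H : Lines d h S E) (σ : Bool) (x y : X) : |E σ x - E σ y| ≤ d x y := by
  obtain ⟨a, ha, hxa⟩ := H.near σ x
  obtain ⟨b, hb, hyb⟩ := H.near σ y
  have h1 := H.le σ x b hb
  have h2 := H.le σ y a ha
  have h3 := H.tri x y b
  have h4 := H.tri y x a
  rw [H.symm y x] at h4
  rw [abs_le]; constructor <;> linarith

/-- distance to the two lines -/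
noncomputable def D (E : Bool → X → ℝ) (x : X) : ℝ := min (E true x) (E false x)

theorem D_nonneg (H : Lines d h S E) (x : X) : 0 ≤ D E x :=
  le_min (H.E_nonneg _ _) (H.E_nonneg _ _)

theorem D_le (σ : Bool) (x : X) : D E x ≤ E σ x := by
  cases σ
  · exact min_le_right _ _
  · exact min_le_left _ _

theorem D_lip (H : Lines d h S E) (x y : X) : |D E x - D E y| ≤ d x y :=
  (abs_min_sub_min_le_max _ _ _ _).trans (max_le (H.E_lip _ _ _) (H.E_lip _ _ _))

/-- the bump functions -/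
noncomputable def w (h : X → ℝ) (E : Bool → X → ℝ) (i : Bool × ℤ × ℤ) (x : X) : ℝ :=
  fa (E i.1 x) (D E x) * prof (D E x / 2 ^ i.2.1) * fc (h x / 2 ^ i.2.1) i.2.2

theorem w_nonneg (i : Bool × ℤ × ℤ) (x : X) : 0 ≤ w h E i x :=
  mul_nonneg (mul_nonneg (fa_nonneg _ _) (prof_nonneg _)) (fc_nonneg _ _)

theorem w_zero {x : X} (hx : D E x = 0) (i : Bool × ℤ × ℤ) : w h E i x = 0 := by
  unfold w
  rw [hx, zero_div]
  have : prof 0 = 0 := by
    unfold prof
    exact max_eq_left ((min_le_left _ _).trans (by norm_num))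
  rw [this]; ring

theorem w_le (H : Lines d h S E) (i : Bool × ℤ × ℤ) (x : X) : w h E i x ≤ 4 := by
  rcases (H.D_nonneg x).eq_or_lt with h0 | h0
  · rw [w_zero h0.symm]; norm_num
  unfold w
  have h1 := fa_le h0 (D_le (E := E) i.1 x)
  have h2 := prof_le (D E x / 2 ^ i.2.1)
  have h3 := fc_le (h x / 2 ^ i.2.1) i.2.2
  have h4 : fa (E i.1 x) (D E x) * prof (D E x / 2 ^ i.2.1) ≤ 1 * 2 :=
    mul_le_mul h1 h2 (prof_nonneg _) (by norm_num)
  calc _ ≤ (1 * 2) * (2 : ℝ) := mul_le_mul h4 h3 (fc_nonneg _ _) (by norm_num)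
    _ = 4 := by norm_num

theorem w_ge {x : X} (hx : 0 < D E x) : ∃ i, 1 ≤ w h E i x := by
  obtain ⟨σ, hσ⟩ : ∃ σ, E σ x = D E x := by
    unfold D
    rcases min_choice (E true x) (E false x) with h | h
    · exact ⟨true, h.symm⟩
    · exact ⟨false, h.symm⟩
  refine ⟨(σ, Int.log 2 (D E x), round (h x / 2 ^ (Int.log 2 (D E x)))), ?_⟩
  have h2 : (2 : ℝ) ^ (Int.log 2 (D E x)) ≤ D E x := by
    simpa using Int.zpow_log_le_self (b := 2) (by norm_num) hx
  have h3 : D E x < (2 : ℝ) ^ (Int.log 2 (D E x) + 1) := by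
    simpa using Int.lt_zpow_succ_log_self (b := 2) (by norm_num) (D E x)
  have hp : (0 : ℝ) < 2 ^ (Int.log 2 (D E x)) := by positivity
  have e1 : fa (E σ x) (D E x) = 1 := by
    unfold fa
    rw [hσ, div_self hx.ne']
    norm_num
  have e2 : 1 ≤ prof (D E x / 2 ^ (Int.log 2 (D E x))) := by
    apply prof_ge
    · rwa [le_div_iff₀ hp, one_mul]
    · rw [div_le_iff₀ hp]
      rw [zpow_add_one₀ (by norm_num)] at h3
      linarith
  have e3 : 1 ≤ fc (h x / 2 ^ (Int.log 2 (D E x))) (round (h x / 2 ^ (Int.log 2 (D E x)))) := by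
    unfold fc
    refine le_max_of_le_right ?_
    have := abs_sub_round (h x / 2 ^ (Int.log 2 (D E x)))
    linarith
  show 1 ≤ fa _ _ * prof _ * fc _ _
  rw [e1, one_mul]
  nlinarith [mul_le_mul e2 e3 (by norm_num) (prof_nonneg (D E x / 2 ^ (Int.log 2 (D E x))))]

/-- the active indices -/
noncomputable def Act (h : X → ℝ) (E : Bool → X → ℝ) (x : X) : Finset (Bool × ℤ × ℤ) :=
  (univ : Finset Bool) ×ˢ ((Icc (Int.log 2 (D E x) - 1) (Int.log 2 (D E x) + 1)).biUnion
    fun j => {(j, ⌊h x / 2 ^ j⌋), (j, ⌊h x / 2 ^ j⌋ + 1)})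

theorem Act_card (x : X) : ((Act h E x).card : ℝ) ≤ 12 := by
  unfold Act
  rw [card_product, card_univ, Fintype.card_bool]
  have h1 : ((Icc (Int.log 2 (D E x) - 1) (Int.log 2 (D E x) + 1)).biUnion
    fun j => ({(j, ⌊h x / 2 ^ j⌋), (j, ⌊h x / 2 ^ j⌋ + 1)} : Finset (ℤ × ℤ))).card ≤
      (Icc (Int.log 2 (D E x) - 1) (Int.log 2 (D E x) + 1)).card * 2 := by
    refine card_biUnion_le_card_mul _ _ _ fun j _ => card_le_two
  have h2 : (Icc (Int.log 2 (D E x) - 1) (Int.log 2 (D E x) + 1)).card = 3 := by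
    rw [Int.card_Icc]; ring_nf; rfl
  rw [h2] at h1
  have : 2 * ((Icc (Int.log 2 (D E x) - 1) (Int.log 2 (D E x) + 1)).biUnion
    fun j => ({(j, ⌊h x / 2 ^ j⌋), (j, ⌊h x / 2 ^ j⌋ + 1)} : Finset (ℤ × ℤ))).card ≤ 12 := by
    omega
  exact_mod_cast this

theorem mem_Act (H : Lines d h S E) {x : X} {i : Bool × ℤ × ℤ} (hi : w h E i x ≠ 0) :
    i ∈ Act h E x := by
  have hx : 0 < D E x := by
    rcases (H.D_nonneg x).eq_or_lt with h0 | h0
    · exact absurd (w_zero h0.symm i) hi
    · exact h0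
  unfold w at hi
  have h2 : prof (D E x / 2 ^ i.2.1) ≠ 0 := fun h => hi (by rw [h]; ring)
  have h3 : fc (h x / 2 ^ i.2.1) i.2.2 ≠ 0 := fun h => hi (by rw [h]; ring)
  unfold Act
  rw [mem_product, mem_biUnion]
  refine ⟨mem_univ _, i.2.1, active hx h2, ?_⟩
  have h4 := fc_ne h3
  rw [abs_lt] at h4
  rw [mem_insert, mem_singleton]
  have h5 : ⌊h x / 2 ^ i.2.1⌋ ≤ i.2.2 := by
    rw [← Int.lt_add_one_iff, Int.floor_lt]
    push_cast
    linarith
  have h6 : i.2.2 ≤ ⌊h x / 2 ^ i.2.1⌋ + 1 := by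
    have : i.2.2 - 1 ≤ ⌊h x / 2 ^ i.2.1⌋ := by
      rw [Int.le_floor]; push_cast; linarith
    linarith
  rcases h5.eq_or_lt with h7 | h7
  · left; rw [h7]
  · right
    have : i.2.2 = ⌊h x / 2 ^ i.2.1⌋ + 1 := le_antisymm h6 h7
    rw [← this]

/-- Lipschitz bound for the bumps -/
theorem w_lip (H : Lines d h S E) {x y : X} (hx : 0 < D E x) (hxy : d x y ≤ D E x / 4)
    (i : Bool × ℤ × ℤ) : |w h E i x - w h E i y| ≤ 60 * (d x y / D E x) := by
  have hd := H.nonneg x y
  have hD := H.D_lip x y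
  have hE := H.E_lip i.1 x y
  have hh := H.hlip x y
  have hD1 := abs_le.mp hD
  have hy34 : 3 / 4 * D E x ≤ D E y := by linarith
  have hy : 0 < D E y := by linarith
  have hr : 0 ≤ d x y / D E x := by positivity
  by_cases hact : w h E i x = 0 ∧ w h E i y = 0
  · rw [hact.1, hact.2]; simp; positivity
  have h2j : 3 / 16 * D E x ≤ 2 ^ i.2.1 := by
    have hp : (0 : ℝ) < 2 ^ i.2.1 := by positivity
    rw [not_and_or] at hact
    rcases hact with hz | hz
    · have h2 : prof (D E x / 2 ^ i.2.1) ≠ 0 := fun h => hz (by unfold w; rw [h]; ring)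
      have h3 := (prof_ne h2).2
      rw [div_lt_iff₀ hp] at h3
      linarith
    · have h2 : prof (D E y / 2 ^ i.2.1) ≠ 0 := fun h => hz (by unfold w; rw [h]; ring)
      have h3 := (prof_ne h2).2
      rw [div_lt_iff₀ hp] at h3
      linarith
  have hp : (0 : ℝ) < 2 ^ i.2.1 := by positivity
  have hq : d x y / 2 ^ i.2.1 ≤ 16 / 3 * (d x y / D E x) := by
    rw [div_le_iff₀ hp]
    calc d x y = 16 / 3 * (d x y / D E x) * (3 / 16 * D E x) := by field_simp
      _ ≤ _ := mul_le_mul_of_nonneg_left h2j (by positivity)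
  have hB : |prof (D E x / 2 ^ i.2.1) - prof (D E y / 2 ^ i.2.1)| ≤ 32 / 3 * (d x y / D E x) := by
    refine (prof_lip _ _).trans ?_
    rw [← sub_div, abs_div, abs_of_pos hp]
    have := div_le_div_of_nonneg_right hD hp.le
    linarith
  have hC : |fc (h x / 2 ^ i.2.1) i.2.2 - fc (h y / 2 ^ i.2.1) i.2.2| ≤
      32 / 3 * (d x y / D E x) := by
    refine (fc_lip _ _ _).trans ?_
    rw [← sub_div, abs_div, abs_of_pos hp]
    have := div_le_div_of_nonneg_right hh hp.le
    linarith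
  have hA := fa_lip (E := E i.1 x) (E' := E i.1 y) hx hy34 (H.E_nonneg _ _) (H.E_nonneg _ _)
    hE hD hd
  unfold w
  refine (prod_diff ?_ ?_ ?_ ?_ hA hB hC).trans ?_
  · rw [abs_of_nonneg (fa_nonneg _ _)]; exact fa_le hy (D_le _ _)
  · rw [abs_of_nonneg (prof_nonneg _)]; exact prof_le _
  · rw [abs_of_nonneg (prof_nonneg _)]; exact prof_le _
  · rw [abs_of_nonneg (fc_nonneg _ _)]; exact fc_le _ _
  · linarith

/-- base points: every active index has a base point on one of the lines within `38 D` -/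
theorem exists_basePt (H : Lines d h S E) [Nonempty X] : ∃ b : Bool × ℤ × ℤ → X,
    (∀ i, b i ∈ S i.1) ∧ ∀ i x, w h E i x ≠ 0 → d x (b i) ≤ 38 * D E x := by
  classical
  have hne : ∀ σ, ∃ a, a ∈ S σ := fun σ =>
    let ⟨a, ha, _⟩ := H.near σ (Classical.arbitrary X)
    ⟨a, ha⟩
  let P : Bool × ℤ × ℤ → X → Prop := fun i a => a ∈ S i.1 ∧ |h a - i.2.2 * 2 ^ i.2.1| ≤
    9 * 2 ^ i.2.1
  refine ⟨fun i => if hi : ∃ a, P i a then hi.choose else (hne i.1).choose, fun i => ?_,
    fun i x hw => ?_⟩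
  · by_cases hi : ∃ a, P i a
    · simp only [dif_pos hi]; exact hi.choose_spec.1
    · simp only [dif_neg hi]; exact (hne i.1).choose_spec
  · have hx : 0 < D E x := by
      rcases (H.D_nonneg x).eq_or_lt with h0 | h0
      · exact absurd (w_zero h0.symm i) hw
      · exact h0
    have hp : (0 : ℝ) < 2 ^ i.2.1 := by positivity
    unfold w at hw
    have n1 : fa (E i.1 x) (D E x) ≠ 0 := fun h => hw (by rw [h]; ring)
    have n2 : prof (D E x / 2 ^ i.2.1) ≠ 0 := fun h => hw (by rw [h]; ring)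
    have n3 : fc (h x / 2 ^ i.2.1) i.2.2 ≠ 0 := fun h => hw (by rw [h]; ring)
    have g1 := fa_ne hx n1
    have g2 := prof_ne n2
    rw [lt_div_iff₀ hp, div_lt_iff₀ hp] at g2
    have g3 := fc_ne n3
    have g3' : |h x - i.2.2 * 2 ^ i.2.1| < 2 ^ i.2.1 := by
      have e : h x - i.2.2 * 2 ^ i.2.1 = (h x / 2 ^ i.2.1 - i.2.2) * 2 ^ i.2.1 := by
        field_simp
      rw [e, abs_mul, abs_of_pos hp]
      calc _ < 1 * (2 : ℝ) ^ i.2.1 := mul_lt_mul_of_pos_right g3 hp
        _ = _ := one_mul _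
    obtain ⟨a, ha, hxa⟩ := H.near i.1 x
    have g4 := H.hlip x a
    have hPa : P i a := by
      refine ⟨ha, ?_⟩
      rw [abs_lt] at g3'
      rw [abs_le] at g4
      rw [abs_le]
      constructor <;> nlinarith [g4.1, g4.2, g3'.1, g3'.2, g1, g2.2]
    have hi : ∃ a, P i a := ⟨a, hPa⟩
    simp only [dif_pos hi]
    have hb := hi.choose_spec
    set b := hi.choose
    have g5 := H.line i.1 a ha b hb.1
    have g6 : |h a - h b| ≤ 18 * 2 ^ i.2.1 := by
      have h1 := abs_le.mp hPa.2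
      have h2 := abs_le.mp hb.2
      rw [abs_le]; constructor <;> linarith [h1.1, h1.2, h2.1, h2.2]
    have g7 := H.tri x a b
    rw [hxa] at g7
    have g8 : (2 : ℝ) ^ i.2.1 < 2 * D E x := by linarith [g2.1]
    linarith

end Lines

end Vale.Agent.P235.H318
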