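import Vale.Agent.P235.Comp.Core

/-!
Cutting a finite metric space open along a line: charts (helper318).
-/

namespace Vale.Agent.P235.H318

open Finset Vale.Agent.P235

/-- a weighted copy of `ρ`, glued to a point at `b` -/
noncomputable def chart {X : Type} (ρ : X → X → ℝ) (b : X) (w : X → ℝ) (x y : X) : ℝ :=
  min (w x) (w y) * ρ x y + max 0 (w x - w y) * ρ x b + max 0 (w y - w x) * ρ y b

theorem chart_bool {p q : ℝ} (hp : 0 ≤ p) (hq : 0 ≤ q) (u v b : Bool) :
    min p q * (if u = v then 0 else 1) + max 0 (p - q) * (if u = b then 0 else 1) +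
      max 0 (q - p) * (if v = b then 0 else 1) =
    |p * (if u = b then 0 else 1) - q * (if v = b then 0 else 1)| := by
  rcases le_total p q with h | h
  · rw [min_eq_left h, max_eq_left (by linarith : p - q ≤ 0), max_eq_right (by linarith : 0 ≤ q - p)]
    cases u <;> cases v <;> cases b <;> simp [abs_of_nonneg hp, abs_of_nonneg hq] <;>
    · rw [abs_of_nonpos (by linarith)]; ring
  · rw [min_eq_right h, max_eq_right (by linarith : 0 ≤ p - q), max_eq_left (by linarith : q - p ≤ 0)]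
    cases u <;> cases v <;> cases b <;> simp [abs_of_nonneg hp, abs_of_nonneg hq] <;>
    · rw [abs_of_nonneg (by linarith)]

theorem isL1_chart {X : Type} [Finite X] {ρ : X → X → ℝ} (h : IsL1 ρ) (b : X) (w : X → ℝ)
    (hw : ∀ x, 0 ≤ w x) : IsL1 (chart ρ b w) := by
  obtain ⟨ι, hι, μ, c, hμ, hρ⟩ := h
  refine (IsL1.sum (univ : Finset ι)
    (fun i x y => μ i * |w x * (if c i x = c i b then 0 else 1) -
      w y * (if c i y = c i b then 0 else 1)|)
    (fun i _ => (isL1_line fun x => w x * (if c i x = c i b then (0 : ℝ) else 1)).smul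
      (hμ i))).congr ?_
  intro x y
  unfold chart
  rw [hρ, hρ, hρ, mul_sum, mul_sum, mul_sum, ← sum_add_distrib, ← sum_add_distrib]
  refine sum_congr rfl fun i _ => ?_
  rw [← chart_bool (hw x) (hw y) (c i x) (c i y) (c i b)]
  ring

theorem chart_le {X : Type} {ρ : X → X → ℝ} (h : IsL1 ρ) (b : X) (w : X → ℝ)
    (hw : ∀ x, 0 ≤ w x) (x y : X) : chart ρ b w x y ≤ w x * ρ x b + w y * ρ y b := by
  unfold chart
  have h1 : ρ x y ≤ ρ x b + ρ y b := by
    have := h.tri x b y
    rwa [h.symm b y] at this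
  have h2 : min (w x) (w y) * ρ x y ≤ min (w x) (w y) * (ρ x b + ρ y b) :=
    mul_le_mul_of_nonneg_left h1 (le_min (hw x) (hw y))
  have h3 : min (w x) (w y) + max 0 (w x - w y) = w x := by
    rcases le_total (w x) (w y) with h | h
    · rw [min_eq_left h, max_eq_left (by linarith)]; ring
    · rw [min_eq_right h, max_eq_right (by linarith)]; ring
  have h4 : min (w x) (w y) + max 0 (w y - w x) = w y := by
    rcases le_total (w x) (w y) with h | h
    · rw [min_eq_left h, max_eq_right (by linarith)]; ring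
    · rw [min_eq_right h, max_eq_left (by linarith)]; ring
  calc min (w x) (w y) * ρ x y + max 0 (w x - w y) * ρ x b + max 0 (w y - w x) * ρ y b
      ≤ min (w x) (w y) * (ρ x b + ρ y b) + max 0 (w x - w y) * ρ x b +
        max 0 (w y - w x) * ρ y b := by linarith
    _ = (min (w x) (w y) + max 0 (w x - w y)) * ρ x b +
        (min (w x) (w y) + max 0 (w y - w x)) * ρ y b := by ring
    _ = w x * ρ x b + w y * ρ y b := by rw [h3, h4]

theorem chart_nonneg {X : Type} {ρ : X → X → ℝ} (h : IsL1 ρ) (b : X) (w : X → ℝ)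
    (hw : ∀ x, 0 ≤ w x) (x y : X) : 0 ≤ chart ρ b w x y := by
  unfold chart
  have h1 := mul_nonneg (le_min (hw x) (hw y)) (h.nonneg x y)
  have h2 := mul_nonneg (le_max_left 0 (w x - w y)) (h.nonneg x b)
  have h3 := mul_nonneg (le_max_left 0 (w y - w x)) (h.nonneg y b)
  linarith

/-- some term with a small base distance -/
theorem exists_base {ι : Type} (I : Finset ι) (p r : ι → ℝ) (hp : ∀ i ∈ I, 0 ≤ p i)
    (hr : ∀ i ∈ I, 0 ≤ r i) (h : 1 / 2 ≤ ∑ i ∈ I, p i) :
    ∃ i ∈ I, 0 < p i ∧ r i ≤ 2 * ∑ i ∈ I, p i * r i := by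
  by_contra hc
  push Not at hc
  set T := ∑ i ∈ I, p i * r i with hT
  have hT0 : 0 ≤ T := sum_nonneg fun i hi => mul_nonneg (hp i hi) (hr i hi)
  have h1 : ∀ i ∈ I, p i * (2 * T) ≤ p i * r i := by
    intro i hi
    rcases (hp i hi).eq_or_lt with h0 | h0
    · rw [← h0]; simp
    · exact mul_le_mul_of_nonneg_left (hc i hi h0).le h0.le
  have h2 : (∑ i ∈ I, p i) * (2 * T) ≤ T := by
    rw [sum_mul]; exact sum_le_sum h1
  obtain ⟨i, hi, hpi⟩ : ∃ i ∈ I, 0 < p i := by
    by_contra hn
    push Not at hn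
    have : ∑ i ∈ I, p i ≤ 0 := sum_nonpos hn
    linarith
  have h3 : p i * (2 * T) < p i * r i := mul_lt_mul_of_pos_left (hc i hi hpi) hpi
  have h4 : (∑ i ∈ I, p i) * (2 * T) < T := by
    rw [sum_mul]
    exact sum_lt_sum h1 ⟨i, hi, h3⟩
  nlinarith

end Vale.Agent.P235.H318
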