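import Vale.Agent.P235.R2.H318.Graph
import Vale.Agent.P235.R2.RED.Bags2

/-!
The bag theorem for cyclic sequences of bags (helper318).
-/

namespace Vale.Agent.P235.H318

open Vale.Agent.P235

/-- Bags `B 0, …, B N = B 0` in cyclic order: every edge lies in a bag; inside a bag the path metric
is the difference of the heights `h`; a vertex outside `B 0` lies in a contiguous range of bags, a
vertex of `B 0` misses a contiguous range of bags; consecutive bags meet. -/
structure CycBags {V : Type} (G : SimpleGraph V) (ℓ : Sym2 V → ℝ) (h : V → ℝ) (N : ℕ)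
    (B : ℕ → Set V) : Prop where
  every : ∀ v, ∃ i ≤ N, v ∈ B i
  cover : ∀ u v, G.Adj u v → ∃ i ≤ N, u ∈ B i ∧ v ∈ B i
  line : ∀ i ≤ N, ∀ u ∈ B i, ∀ v ∈ B i, pathDist G ℓ u v = |h u - h v|
  closed : B N = B 0
  conv_out : ∀ v, v ∉ B 0 → ∀ i j k, i ≤ j → j ≤ k → k ≤ N → v ∈ B i → v ∈ B k → v ∈ B j
  conv_in : ∀ v, v ∈ B 0 → ∀ i j k, i ≤ j → j ≤ k → k ≤ N → v ∉ B i → v ∉ B k → v ∉ B j
  meet : ∀ i < N, (B i ∩ B (i + 1)).Nonempty

section

variable {V : Type} (B : ℕ → Set V) (N : ℕ)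

/-- the vertices of the space cut open along `B 0`: the second copies are added -/
abbrev Open : Type := V ⊕ {v : V // v ∈ B 0 ∧ ∃ j ≤ N, v ∉ B j}

/-- the projection -/
def proj : Open B N → V := Sum.elim id Subtype.val

/-- the bags of the space cut open -/
def bag (i : ℕ) : Set (Open B N) :=
  {x | Sum.elim (fun v => v ∈ B i ∧ (v ∈ B 0 → ∀ i' ≤ i, v ∈ B i'))
    (fun v => ∀ k, i ≤ k → k ≤ N → v.1 ∈ B k) x}

/-- edge lengths given by heights -/
def hlen {X : Type} (h : X → ℝ) : Sym2 X → ℝ :=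
  Sym2.lift ⟨fun u v => |h u - h v|, fun _ _ => abs_sub_comm _ _⟩

variable {B N}

theorem mem_inl {i : ℕ} {v : V} : (Sum.inl v : Open B N) ∈ bag B N i ↔
    v ∈ B i ∧ (v ∈ B 0 → ∀ i' ≤ i, v ∈ B i') := Iff.rfl

theorem mem_inr {i : ℕ} {v : {v : V // v ∈ B 0 ∧ ∃ j ≤ N, v ∉ B j}} :
    (Sum.inr v : Open B N) ∈ bag B N i ↔ ∀ k, i ≤ k → k ≤ N → v.1 ∈ B k := Iff.rfl

theorem proj_mem {i : ℕ} (hi : i ≤ N) {x : Open B N} (hx : x ∈ bag B N i) :
    proj B N x ∈ B i := by
  rcases x with v | v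
  · exact (mem_inl.1 hx).1
  · exact mem_inr.1 hx i le_rfl hi

theorem proj_inj {i : ℕ} {x y : Open B N} (hx : x ∈ bag B N i)
    (hy : y ∈ bag B N i) (h : proj B N x = proj B N y) : x = y := by
  have key : ∀ (v : V) (w : {v : V // v ∈ B 0 ∧ ∃ j ≤ N, v ∉ B j}),
      (Sum.inl v : Open B N) ∈ bag B N i → (Sum.inr w : Open B N) ∈ bag B N i →
      v = w.1 → False := by
    intro v w hv hw e
    rw [mem_inl] at hv
    rw [mem_inr] at hw
    obtain ⟨h0, j, hj, hjn⟩ := w.2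
    rcases le_total j i with hji | hji
    · exact hjn (e ▸ hv.2 (e ▸ h0) j hji)
    · exact hjn (hw j hji hj)
  rcases x with v | v <;> rcases y with w | w
  · exact congrArg Sum.inl h
  · exact (key v w hx hy h).elim
  · exact (key w v hy hx h.symm).elim
  · exact congrArg Sum.inr (Subtype.ext h)

end

namespace CycBags

variable {V : Type} {G : SimpleGraph V} {ℓ : Sym2 V → ℝ} {h : V → ℝ} {N : ℕ} {B : ℕ → Set V}

theorem pre_suf (H : CycBags G ℓ h N B) {v : V} (h0 : v ∈ B 0) {j : ℕ} (hv : v ∈ B j) :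
    (∀ i ≤ j, v ∈ B i) ∨ ∀ k, j ≤ k → k ≤ N → v ∈ B k := by
  by_contra hc
  push Not at hc
  obtain ⟨⟨i, hij, hi⟩, k, hjk, hkN, hk⟩ := hc
  exact H.conv_in v h0 i j k hij hjk hkN hi hk hv

/-- a vertex of two consecutive bags has a lift in the two bags -/
theorem lift_two (H : CycBags G ℓ h N B) {i : ℕ} (hi : i < N) {v : V} (h1 : v ∈ B i)
    (h2 : v ∈ B (i + 1)) : ∃ x, x ∈ bag B N i ∧ x ∈ bag B N (i + 1) := by
  by_cases h0 : v ∈ B 0
  · by_cases hall : ∃ j ≤ N, v ∉ B j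
    · rcases H.pre_suf h0 h2 with hp | hp
      · exact ⟨Sum.inl v, mem_inl.2 ⟨h1, fun _ i' hi' => hp i' (by omega)⟩,
          mem_inl.2 ⟨h2, fun _ => hp⟩⟩
      · refine ⟨Sum.inr ⟨v, h0, hall⟩, mem_inr.2 fun k hk hkN => ?_, mem_inr.2 hp⟩
        rcases hk.eq_or_lt with rfl | hk
        · exact h1
        · exact hp k hk hkN
    · push Not at hall
      exact ⟨Sum.inl v, mem_inl.2 ⟨h1, fun _ i' hi' => hall i' (by omega)⟩,
        mem_inl.2 ⟨h2, fun _ i' hi' => hall i' (by omega)⟩⟩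
  · exact ⟨Sum.inl v, mem_inl.2 ⟨h1, fun h => absurd h h0⟩, mem_inl.2 ⟨h2, fun h => absurd h h0⟩⟩

/-- every vertex of a bag has a lift in that bag -/
theorem lift_one (H : CycBags G ℓ h N B) {i : ℕ} (hi : i ≤ N) {v : V} (h1 : v ∈ B i) :
    ∃ x, x ∈ bag B N i ∧ proj B N x = v := by
  by_cases h0 : v ∈ B 0
  · by_cases hall : ∃ j ≤ N, v ∉ B j
    · rcases H.pre_suf h0 h1 with hp | hp
      · exact ⟨Sum.inl v, mem_inl.2 ⟨h1, fun _ => hp⟩, rfl⟩
      · exact ⟨Sum.inr ⟨v, h0, hall⟩, mem_inr.2 hp, rfl⟩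
    · push Not at hall
      exact ⟨Sum.inl v, mem_inl.2 ⟨h1, fun _ i' hi' => hall i' (by omega)⟩, rfl⟩
  · exact ⟨Sum.inl v, mem_inl.2 ⟨h1, fun h => absurd h h0⟩, rfl⟩

theorem every' (H : CycBags G ℓ h N B) (x : Open B N) : ∃ i ≤ N, x ∈ bag B N i := by
  rcases x with v | v
  · by_cases h0 : v ∈ B 0
    · exact ⟨0, Nat.zero_le _, mem_inl.2 ⟨h0, fun _ i' hi' => by
        obtain rfl : i' = 0 := by omega
        exact h0⟩⟩
    · obtain ⟨i, hi, hv⟩ := H.every v
      exact ⟨i, hi, mem_inl.2 ⟨hv, fun h => absurd h h0⟩⟩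
  · refine ⟨N, le_rfl, mem_inr.2 fun k h1 h2 => ?_⟩
    obtain rfl : k = N := by omega
    rw [H.closed]
    exact v.2.1

theorem convex' (H : CycBags G ℓ h N B) (x : Open B N) (i j k : ℕ) (hij : i ≤ j) (hjk : j ≤ k)
    (hk : k ≤ N) (h1 : x ∈ bag B N i) (h2 : x ∈ bag B N k) : x ∈ bag B N j := by
  rcases x with v | v
  · rw [mem_inl] at *
    by_cases h0 : v ∈ B 0
    · exact ⟨h2.2 h0 j hjk, fun _ i' hi' => h2.2 h0 i' (hi'.trans hjk)⟩
    · exact ⟨H.conv_out v h0 i j k hij hjk hk h1.1 h2.1, fun h => absurd h h0⟩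
  · rw [mem_inr] at *
    exact fun k' hk' hN => h1 k' (hij.trans hk') hN

/-- the bag graph of the space cut open is connected -/
theorem connected' (H : CycBags G ℓ h N B) (hne : Nonempty V) :
    (Red.bagGraph (bag B N) N).Connected := by
  have hB0 : (B 0).Nonempty := by
    rcases Nat.eq_zero_or_pos N with hN | hN
    · obtain ⟨v⟩ := hne
      obtain ⟨i, hi, hv⟩ := H.every v
      obtain rfl : i = 0 := by omega
      exact ⟨v, hv⟩
    · obtain ⟨v, hv, -⟩ := H.meet 0 hN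
      exact ⟨v, hv⟩
  obtain ⟨v0, hv0⟩ := hB0
  have hx0 : (Sum.inl v0 : Open B N) ∈ bag B N 0 := mem_inl.2 ⟨hv0, fun _ i' hi' => by
    obtain rfl : i' = 0 := by omega
    exact hv0⟩
  have hsame : ∀ i ≤ N, ∀ x ∈ bag B N i, ∀ y ∈ bag B N i,
      (Red.bagGraph (bag B N) N).Reachable x y := by
    intro i hi x hx y hy
    by_cases hxy : x = y
    · rw [hxy]
    · exact SimpleGraph.Adj.reachable ⟨hxy, i, hi, hx, hy⟩
  have hreach : ∀ i ≤ N, ∀ x ∈ bag B N i,
      (Red.bagGraph (bag B N) N).Reachable (Sum.inl v0) x := by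
    intro i
    induction i with
    | zero => exact fun hi x hx => hsame 0 hi _ hx0 x hx
    | succ i ih =>
      intro hi x hx
      obtain ⟨v, h1, h2⟩ := H.meet i (by omega)
      obtain ⟨z, hz1, hz2⟩ := H.lift_two (by omega) h1 h2
      exact (ih (by omega) z hz1).trans (hsame _ hi z hz2 x hx)
  have : Nonempty (Open B N) := ⟨Sum.inl v0⟩
  refine ⟨fun x y => ?_⟩
  obtain ⟨i, hi, hx⟩ := H.every' x
  obtain ⟨j, hj, hy⟩ := H.every' y
  exact (hreach i hi x hx).symm.trans (hreach j hj y hy)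

end CycBags

/-- **The bag theorem for cyclic sequences of bags.** -/
theorem cyc_bag_theorem {f : ℕ → ℝ} (hf : Red.MStar f) {V : Type} [Finite V] {G : SimpleGraph V}
    {ℓ : Sym2 V → ℝ} {h : V → ℝ} {N : ℕ} {B : ℕ → Set V} (hc : G.Connected)
    (hℓ : ∀ e ∈ G.edgeSet, 0 < ℓ e) (H : CycBags G ℓ h N B) (hfN : 0 ≤ f N) :
    EmbedsL1 (pathDist G ℓ) (219073 * (2 + 4 * f N)) := by
  classical
  have hd := pathDist_isMet hc hℓ
  have hB0 : B N = B 0 := H.closed
  -- the two bag graphs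
  set G₁ := Red.bagGraph B N with hG₁
  set G' := Red.bagGraph (bag B N) N with hG'
  have hle : G ≤ G₁ := fun u v huv => by
    obtain ⟨i, hi, h1, h2⟩ := H.cover u v huv
    exact ⟨huv.ne, i, hi, h1, h2⟩
  have hc₁ : G₁.Connected := hc.mono hle
  have hc' : G'.Connected := H.connected' hc.nonempty
  have hadj₁ : ∀ u v, G₁.Adj u v → pathDist G ℓ u v = |h u - h v| := by
    rintro u v ⟨-, i, hi, h1, h2⟩
    exact H.line i hi u h1 v h2
  have hpos₁ : ∀ u v, G₁.Adj u v → 0 < |h u - h v| := fun u v huv => by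
    rw [← hadj₁ u v huv]; exact hd.pos u v huv.1
  have hproj : ∀ x y, G'.Adj x y → G₁.Adj (proj B N x) (proj B N y) := by
    rintro x y ⟨hne, i, hi, h1, h2⟩
    exact ⟨fun e => hne (proj_inj h1 h2 e), i, hi, proj_mem hi h1, proj_mem hi h2⟩
  have hℓ₁ : ∀ e ∈ G₁.edgeSet, 0 < hlen h e := by
    intro e
    induction e using Sym2.ind with
    | _ u v => exact fun he => hpos₁ u v he
  have hℓ' : ∀ e ∈ G'.edgeSet, 0 < hlen (fun x => h (proj B N x)) e := by
    intro e
    induction e using Sym2.ind with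
    | _ x y => exact fun he => hpos₁ _ _ (hproj x y he)
  have hd' := pathDist_isMet hc' hℓ'
  have hd₁ := pathDist_isMet hc₁ hℓ₁
  -- distances inside the bags
  have hline₁ : ∀ i ≤ N, ∀ u ∈ B i, ∀ v ∈ B i, pathDist G₁ (hlen h) u v ≤ |h u - h v| := by
    intro i hi u hu v hv
    by_cases e : u = v
    · rw [e, hd₁.self]; exact abs_nonneg _
    · exact pathDist_adj hℓ₁ (show G₁.Adj u v from ⟨e, i, hi, hu, hv⟩)
  have hline' : ∀ i ≤ N, ∀ x ∈ bag B N i, ∀ y ∈ bag B N i,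
      pathDist G' (hlen fun x => h (proj B N x)) x y = |h (proj B N x) - h (proj B N y)| := by
    intro i hi x hx y hy
    apply le_antisymm
    · by_cases e : x = y
      · rw [e, hd'.self]; exact abs_nonneg _
      · exact pathDist_adj hℓ' (show G'.Adj x y from ⟨e, i, hi, hx, hy⟩)
    · have : Nonempty (G'.Walk x y) := hc' x y
      exact le_ciInf fun p => walk_lip (f := fun x => h (proj B N x)) (fun u v _ => le_rfl) p
  have hbags : Red.Bags G' (hlen fun x => h (proj B N x)) (fun x => h (proj B N x)) N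
      (bag B N) :=
    { every := H.every'
      cover := fun x y hxy => by
        obtain ⟨-, i, hi, h1, h2⟩ := hxy
        exact ⟨i, hi, h1, h2⟩
      line := hline'
      convex := H.convex' }
  have hemb := Red.bag_theorem hf hc' hℓ' hbags hfN
  have hK : 1 ≤ 2 + 4 * f N := by linarith
  -- the metric of the bag graph is the metric of `G`
  have heq : pathDist G₁ (hlen h) = pathDist G ℓ := by
    funext x y
    apply le_antisymm
    · have := pathDist_semi (G := G) (ℓ := ℓ) (ρ := pathDist G₁ (hlen h)) (K := 1) hc one_pos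
        hd₁.self hd₁.tri (fun u v huv => by
          obtain ⟨i, hi, h1, h2⟩ := H.cover u v huv
          have h3 := hline₁ i hi u h1 v h2
          rw [← H.line i hi u h1 v h2] at h3
          have h4 := pathDist_adj hℓ huv
          linarith) x y
      rwa [one_mul] at this
    · have := pathDist_semi (G := G₁) (ℓ := hlen h) (ρ := pathDist G ℓ) (K := 1) hc₁ one_pos
        hd.self hd.tri (fun u v huv => by
          rw [hadj₁ u v huv, one_mul]; exact le_rfl) x y
      rwa [one_mul] at this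
  rw [← heq]
  refine cut_graph (G := G₁) (G' := G') hc₁ hc' hℓ₁ hℓ' hK hemb (proj B N) Sum.inl
    (fun v => rfl) (fun x y hxy => ⟨hproj x y hxy, rfl⟩) (B 0)
    (fun σ => if σ then bag B N 0 else bag B N N) ?_ ?_ ?_ h (fun u v _ => le_rfl) ?_ ?_ ?_ ?_
  · -- nonempty
    have hne : ∀ i ≤ N, (B i).Nonempty → (bag B N i).Nonempty := fun i hi ⟨v, hv⟩ => by
      obtain ⟨x, hx, -⟩ := H.lift_one hi hv
      exact ⟨x, hx⟩
    have h0 : (B 0).Nonempty := by
      rcases Nat.eq_zero_or_pos N with hN | hN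
      · obtain ⟨v⟩ := hc.nonempty
        obtain ⟨i, hi, hv⟩ := H.every v
        obtain rfl : i = 0 := by omega
        exact ⟨v, hv⟩
      · obtain ⟨v, hv, -⟩ := H.meet 0 hN
        exact ⟨v, hv⟩
    intro σ
    cases σ
    · exact hne N le_rfl (by rw [hB0]; exact h0)
    · exact hne 0 (Nat.zero_le _) h0
  · intro σ x hx
    cases σ
    · have := proj_mem le_rfl (hx : x ∈ bag B N N)
      rwa [hB0] at this
    · exact proj_mem (Nat.zero_le _) (hx : x ∈ bag B N 0)
  · intro v hv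
    refine mem_inl.2 ⟨hv, fun _ i' hi' => ?_⟩
    obtain rfl : i' = 0 := by omega
    exact hv
  · intro σ a ha c hc
    cases σ
    · exact (hline' N le_rfl a ha c hc).le
    · exact (hline' 0 (Nat.zero_le _) a ha c hc).le
  · exact fun a ha c hc => hline₁ 0 (Nat.zero_le _) a ha c hc
  · rintro u v hu hv ⟨hne, i, hi, h1, h2⟩
    exact ⟨fun e => hne (Sum.inl_injective e), i, hi, mem_inl.2 ⟨h1, fun h => absurd h hu⟩,
      mem_inl.2 ⟨h2, fun h => absurd h hv⟩⟩
  · rintro a v ha hv ⟨hne, i, hi, h1, h2⟩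
    have hvi : (Sum.inl v : Open B N) ∈ bag B N i := mem_inl.2 ⟨h1, fun h => absurd h hv⟩
    have hleft : ∀ i' ≤ 0, a ∈ B i' := fun i' hi' => by
      obtain rfl : i' = 0 := by omega
      exact ha
    by_cases hp : ∀ i' ≤ i, a ∈ B i'
    · exact ⟨true, Sum.inl a, mem_inl.2 ⟨ha, fun _ => hleft⟩, rfl,
        fun e => hne (Sum.inl_injective e), i, hi, hvi, mem_inl.2 ⟨h2, fun _ => hp⟩⟩
    · have hs : ∀ k, i ≤ k → k ≤ N → a ∈ B k := (H.pre_suf ha h2).resolve_left hp
      push Not at hp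
      obtain ⟨j, hj, hja⟩ := hp
      refine ⟨false, Sum.inr ⟨a, ha, j, by omega, hja⟩, mem_inr.2 fun k h3 h4 => ?_, rfl,
        (by simp), i, hi, hvi, mem_inr.2 hs⟩
      obtain rfl : k = N := by omega
      rw [hB0]; exact ha

end Vale.Agent.P235.H318
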