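import Vale.Agent.P235.R2.H318.Cyc
import Vale.Agent.P235.R2.H934.CycDefs
import Vale.Agent.P235.R2.H673.SweepBags
import Vale.Agent.P235.R2.H341.F0

/-!
Plane graphs in which every edge lies on a shortest path between two fixed vertices, anywhere
(helper318), from the cyclic sweep (`RowCyc`, helper934).
-/

namespace Vale.Agent.P235.H318

open Vale.Agent.P235 Vale.Agent.P235.Red

variable {V : Type} {G : SimpleGraph V} {ℓ : Sym2 V → ℝ} {h : V → ℝ}

/-- on one path of a cyclic sweep there is a walk whose length is the difference of the heights -/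
theorem exists_walk [Finite V] {N : ℕ} {P : ℕ → Set V} (hS : CycSweep G h N P)
    (hl : ∀ u v, G.Adj u v → ℓ s(u, v) = |h u - h v|) {i : ℕ} (hi : i ≤ N) :
    ∀ n : ℕ, ∀ u ∈ P i, ∀ v ∈ P i, h u ≤ h v → {w ∈ P i | h u < h w ∧ h w < h v}.ncard = n →
      ∃ w : G.Walk u v, (w.edges.map ℓ).sum = h v - h u := by
  intro n
  induction n using Nat.strong_induction_on with
  | _ n ih =>
    intro u hu v hv huv hn
    rcases eq_or_lt_of_le huv with he | hlt
    · obtain rfl := hS.inj i hi u hu v hv he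
      exact ⟨SimpleGraph.Walk.nil, by simp⟩
    · by_cases hb : ∃ w ∈ P i, h u < h w ∧ h w < h v
      · obtain ⟨w, hw, h1, h2⟩ := hb
        have c1 : {z ∈ P i | h u < h z ∧ h z < h w}.ncard < n := by
          rw [← hn]
          refine Set.ncard_lt_ncard ⟨fun z hz => ⟨hz.1, hz.2.1, hz.2.2.trans h2⟩, fun hc => ?_⟩
            (Set.toFinite _)
          exact lt_irrefl _ (hc ⟨hw, h1, h2⟩).2.2
        have c2 : {z ∈ P i | h w < h z ∧ h z < h v}.ncard < n := by
          rw [← hn]
          refine Set.ncard_lt_ncard ⟨fun z hz => ⟨hz.1, h1.trans hz.2.1, hz.2.2⟩, fun hc => ?_⟩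
            (Set.toFinite _)
          exact lt_irrefl _ (hc ⟨hw, h1, h2⟩).2.1
        obtain ⟨p, hp⟩ := ih _ c1 u hu w hw h1.le rfl
        obtain ⟨q, hq⟩ := ih _ c2 w hw v hv h2.le rfl
        refine ⟨p.append q, ?_⟩
        rw [SimpleGraph.Walk.edges_append, List.map_append, List.sum_append, hp, hq]
        ring
      · have ha : G.Adj u v := hS.conn i hi u hu v hv hlt fun w hw hh => hb ⟨w, hw, hh⟩
        refine ⟨SimpleGraph.Walk.cons ha SimpleGraph.Walk.nil, ?_⟩
        rw [SimpleGraph.Walk.edges_cons, List.map_cons, List.sum_cons, hl u v ha,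
          abs_sub_comm, abs_of_pos (sub_pos.2 hlt)]
        simp

/-- on one path of a cyclic sweep the path metric is the difference of the heights -/
theorem pathDist_bag [Finite V] {N : ℕ} {P : ℕ → Set V} (hS : CycSweep G h N P)
    (hl : ∀ u v, G.Adj u v → ℓ s(u, v) = |h u - h v|) {i : ℕ} (hi : i ≤ N) {u v : V}
    (hu : u ∈ P i) (hv : v ∈ P i) : pathDist G ℓ u v = |h u - h v| := by
  have key : ∀ u ∈ P i, ∀ v ∈ P i, h u ≤ h v → pathDist G ℓ u v = |h u - h v| := by
    intro u hu v hv huv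
    obtain ⟨w, hw⟩ := exists_walk hS hl hi _ u hu v hv huv rfl
    apply le_antisymm
    · refine (R2.H673.pathDist_le_walk
        (fun a b hab => by rw [hl a b hab]; exact abs_nonneg _) w).trans ?_
      rw [hw, abs_sub_comm]
      exact le_abs_self _
    · exact R2.H673.abs_sub_le_pathDist (fun a b hab => (hl a b hab).ge) ⟨w⟩
  rcases le_total (h u) (h v) with h1 | h1
  · exact key u hu v hv h1
  · rw [R2.H673.pathDist_comm', key v hv u hu h1, abs_sub_comm]

/-- **A cyclic sweep with tight lengths is a cyclic sequence of bags.** -/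
theorem cycBags_of_sweep [Finite V] {N : ℕ} {P : ℕ → Set V} (hS : CycSweep G h N P)
    (hl : ∀ u v, G.Adj u v → ℓ s(u, v) = |h u - h v|)
    (hpos : ∀ u v, G.Adj u v → 0 < ℓ s(u, v)) : CycBags G ℓ h N P where
  every := hS.every
  cover u v ha := by
    have hne : h u ≠ h v := by
      intro he
      have := hpos u v ha
      rw [hl u v ha, he] at this
      simp at this
    rcases lt_or_gt_of_ne hne with h1 | h1
    · obtain ⟨i, hi, hu, hv, -⟩ := hS.cover u v ha h1
      exact ⟨i, hi, hu, hv⟩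
    · obtain ⟨i, hi, hv, hu, -⟩ := hS.cover v u ha.symm h1
      exact ⟨i, hi, hu, hv⟩
  line i hi u hu v hv := pathDist_bag hS hl hi hu hv
  closed := hS.closed
  conv_out := hS.conv_out
  conv_in := hS.conv_in
  meet i hi := by
    obtain ⟨s, hs, -⟩ := hS.bot
    exact ⟨s, hs i hi.le, hs (i + 1) hi⟩

/-- **Plane graphs, every edge on a shortest `s`-`t` path, `s` and `t` anywhere**, from the cyclic
row. -/
theorem plane_anywhere (hRC : RowCyc) {f : ℕ → ℝ} (hM : MStar f) (V : Type) [Finite V]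
    (G : SimpleGraph V) (σ : Equiv.Perm G.Dart) (ℓ : Sym2 V → ℝ) (s t : V) (hst : s ≠ t)
    (hc : G.Connected) (hP : PlaneMap G σ) (hℓ : ∀ e ∈ G.edgeSet, 0 < ℓ e)
    (htight : ∀ u v, G.Adj u v →
      pathDist G ℓ s u + ℓ s(u, v) + pathDist G ℓ v t = pathDist G ℓ s t ∨
      pathDist G ℓ s v + ℓ s(u, v) + pathDist G ℓ u t = pathDist G ℓ s t)
    (hf : 0 ≤ f (Nat.card V ^ 2)) :
    EmbedsL1 (pathDist G ℓ) (219073 * (2 + 4 * f (Nat.card V ^ 2))) := by
  obtain ⟨hU, hl⟩ := F0.rowF0 V G ℓ s t hc hst hℓ htight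
  obtain ⟨P, hS⟩ := hRC V G σ (pathDist G ℓ s) s t hc hP hU
  exact cyc_bag_theorem hM hc hℓ (cycBags_of_sweep hS hl fun u v ha => hℓ _ (G.mem_edgeSet.2 ha)) hf

end Vale.Agent.P235.H318
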