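import Vale.Agent.P235.R2.H318.Bump

/-!
Cutting a finite metric space open along a line: the embedding (helper318).
-/

namespace Vale.Agent.P235.H318

open Finset Vale.Agent.P235

namespace Lines

variable {X : Type} {d : X → X → ℝ} {h : X → ℝ} {S : Bool → Set X} {E : Bool → X → ℝ}

open Classical in
/-- all indices -/
noncomputable def idx [Fintype X] (h : X → ℝ) (E : Bool → X → ℝ) : Finset (Bool × ℤ × ℤ) :=
  univ.biUnion (Act h E)

theorem Act_sub [Fintype X] (x : X) : Act h E x ⊆ idx h E := by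
  classical
  intro i hi
  unfold idx
  exact mem_biUnion.mpr ⟨x, mem_univ _, hi⟩

theorem w_out [Fintype X] (H : Lines d h S E) {x : X} {i : Bool × ℤ × ℤ} (hi : i ∉ Act h E x) :
    w h E i x = 0 := by
  by_contra hc
  exact hi (H.mem_Act hc)

/-- the total weight is bounded -/
theorem sum_w_le [Fintype X] (H : Lines d h S E) (x : X) :
    ∑ i ∈ idx h E, w h E i x ≤ 48 := by
  classical
  rw [← sum_subset (Act_sub (h := h) (E := E) x) fun i _ hi => H.w_out hi]
  calc ∑ i ∈ Act h E x, w h E i x ≤ ∑ _i ∈ Act h E x, (4 : ℝ) := sum_le_sum fun i _ => H.w_le i x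
    _ = (Act h E x).card * 4 := by rw [sum_const, nsmul_eq_mul]
    _ ≤ 12 * 4 := mul_le_mul_of_nonneg_right (Act_card x) (by norm_num)
    _ = 48 := by norm_num

theorem sum_w_ge [Fintype X] (H : Lines d h S E) {x : X} (hx : 0 < D E x) :
    1 ≤ ∑ i ∈ idx h E, w h E i x := by
  obtain ⟨i, hi⟩ := w_ge (h := h) hx
  have hmem : i ∈ idx h E := Act_sub x (H.mem_Act (by linarith))
  exact hi.trans (single_le_sum (f := fun i => w h E i x) (fun i _ => w_nonneg i x) hmem)

theorem sum_diff_le [Fintype X] (H : Lines d h S E) {x y : X} (hx : 0 < D E x)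
    (hxy : d x y ≤ D E x / 4) :
    ∑ i ∈ idx h E, |w h E i x - w h E i y| ≤ 1440 * (d x y / D E x) := by
  classical
  have hsub : Act h E x ∪ Act h E y ⊆ idx h E := union_subset (Act_sub x) (Act_sub y)
  rw [← sum_subset hsub fun i _ hi => by
    rw [mem_union, not_or] at hi
    rw [H.w_out hi.1, H.w_out hi.2, sub_self, abs_zero]]
  have hr : 0 ≤ d x y / D E x := div_nonneg (H.nonneg _ _) hx.le
  calc ∑ i ∈ Act h E x ∪ Act h E y, |w h E i x - w h E i y|
      ≤ ∑ _i ∈ Act h E x ∪ Act h E y, 60 * (d x y / D E x) :=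
        sum_le_sum fun i _ => H.w_lip hx hxy i
    _ = (Act h E x ∪ Act h E y).card * (60 * (d x y / D E x)) := by
        rw [sum_const, nsmul_eq_mul]
    _ ≤ 24 * (60 * (d x y / D E x)) := by
        refine mul_le_mul_of_nonneg_right ?_ (by positivity)
        have h1 : ((Act h E x ∪ Act h E y).card : ℝ) ≤ (Act h E x).card + (Act h E y).card := by
          exact_mod_cast card_union_le _ _
        linarith [Act_card (h := h) (E := E) x, Act_card (h := h) (E := E) y]
    _ = _ := by ring

/-- the glued semimetric -/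
noncomputable def Θ [Fintype X] (h : X → ℝ) (E : Bool → X → ℝ) (ρ : X → X → ℝ)
    (b : Bool × ℤ × ℤ → X) (x y : X) : ℝ :=
  ∑ i ∈ idx h E, chart ρ (b i) (w h E i) x y

variable [Fintype X] {ρ : X → X → ℝ} {b : Bool × ℤ × ℤ → X} {K : ℝ}

theorem isL1_Θ (hρ : IsL1 ρ) : IsL1 (Θ h E ρ b) :=
  (IsL1.sum (idx h E) (fun i => chart ρ (b i) (w h E i)) fun i _ =>
    isL1_chart hρ (b i) _ fun x => w_nonneg i x).congr fun _ _ => rfl

/-- crude upper bound -/
theorem Θ_le (H : Lines d h S E) (hρ : IsL1 ρ) (hK : ∀ x y, ρ x y ≤ K * d x y) (hK0 : 0 ≤ K)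
    (hb : ∀ i x, w h E i x ≠ 0 → d x (b i) ≤ 38 * D E x) (x y : X) :
    Θ h E ρ b x y ≤ 1824 * K * (D E x + D E y) := by
  have h1 : ∀ x, ∑ i ∈ idx h E, w h E i x * ρ x (b i) ≤ 1824 * K * D E x := by
    intro x
    have h2 : ∀ i ∈ idx h E, w h E i x * ρ x (b i) ≤ w h E i x * (K * (38 * D E x)) := by
      intro i _
      by_cases hi : w h E i x = 0
      · rw [hi]; simp
      · refine mul_le_mul_of_nonneg_left ?_ (w_nonneg i x)
        exact (hK _ _).trans (mul_le_mul_of_nonneg_left (hb i x hi) hK0)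
    have h3 := sum_le_sum h2
    rw [← sum_mul] at h3
    have h4 : (∑ i ∈ idx h E, w h E i x) * (K * (38 * D E x)) ≤ 48 * (K * (38 * D E x)) := by
      refine mul_le_mul_of_nonneg_right (H.sum_w_le x) ?_
      have := H.D_nonneg x
      positivity
    linarith
  unfold Θ
  calc _ ≤ ∑ i ∈ idx h E, (w h E i x * ρ x (b i) + w h E i y * ρ y (b i)) :=
        sum_le_sum fun i _ => chart_le hρ _ _ (fun x => w_nonneg i x) x y
    _ ≤ _ := by
        rw [sum_add_distrib]
        linarith [h1 x, h1 y]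

/-- the local upper bound, one order -/
theorem Θ_local (H : Lines d h S E) (hρ : IsL1 ρ) (hK : ∀ x y, ρ x y ≤ K * d x y) (hK0 : 0 ≤ K)
    (hb : ∀ i x, w h E i x ≠ 0 → d x (b i) ≤ 38 * D E x) {x y : X} (hx : 0 < D E x)
    (hyx : D E y ≤ D E x) (hxy : d x y ≤ D E x / 4) :
    Θ h E ρ b x y ≤ 54768 * K * d x y := by
  have hterm : ∀ i ∈ idx h E, chart ρ (b i) (w h E i) x y ≤
      w h E i x * (K * d x y) + |w h E i x - w h E i y| * (K * (38 * D E x)) := by
    intro i _
    unfold chart
    have hKD : 0 ≤ K * (38 * D E x) := by positivity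
    have t1 : min (w h E i x) (w h E i y) * ρ x y ≤ w h E i x * (K * d x y) :=
      mul_le_mul (min_le_left _ _) (hK x y) (hρ.nonneg _ _) (w_nonneg i x)
    have t2 : max 0 (w h E i x - w h E i y) * ρ x (b i) ≤
        max 0 (w h E i x - w h E i y) * (K * (38 * D E x)) := by
      by_cases hi : w h E i x = 0
      · have : max 0 (w h E i x - w h E i y) = 0 :=
          max_eq_left (by rw [hi]; linarith [w_nonneg (h := h) (E := E) i y])
        rw [this]; simp
      · exact mul_le_mul_of_nonneg_left ((hK _ _).trans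
          (mul_le_mul_of_nonneg_left (hb i x hi) hK0)) (le_max_left _ _)
    have t3 : max 0 (w h E i y - w h E i x) * ρ y (b i) ≤
        max 0 (w h E i y - w h E i x) * (K * (38 * D E x)) := by
      by_cases hi : w h E i y = 0
      · have : max 0 (w h E i y - w h E i x) = 0 :=
          max_eq_left (by rw [hi]; linarith [w_nonneg (h := h) (E := E) i x])
        rw [this]; simp
      · refine mul_le_mul_of_nonneg_left ((hK _ _).trans
          (mul_le_mul_of_nonneg_left ((hb i y hi).trans ?_) hK0)) (le_max_left _ _)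
        linarith
    have t4 : max 0 (w h E i x - w h E i y) + max 0 (w h E i y - w h E i x) =
        |w h E i x - w h E i y| := by
      rcases le_total (w h E i x) (w h E i y) with h0 | h0
      · rw [max_eq_left (by linarith), max_eq_right (by linarith), abs_of_nonpos (by linarith)]
        ring
      · rw [max_eq_right (by linarith), max_eq_left (by linarith), abs_of_nonneg (by linarith)]
        ring
    rw [← t4, add_mul]
    linarith
  unfold Θ
  refine (sum_le_sum hterm).trans ?_
  rw [sum_add_distrib, ← sum_mul, ← sum_mul]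
  have s1 : (∑ i ∈ idx h E, w h E i x) * (K * d x y) ≤ 48 * (K * d x y) :=
    mul_le_mul_of_nonneg_right (H.sum_w_le x) (mul_nonneg hK0 (H.nonneg _ _))
  have s2 : (∑ i ∈ idx h E, |w h E i x - w h E i y|) * (K * (38 * D E x)) ≤
      1440 * (d x y / D E x) * (K * (38 * D E x)) :=
    mul_le_mul_of_nonneg_right (H.sum_diff_le hx hxy) (by positivity)
  have s3 : 1440 * (d x y / D E x) * (K * (38 * D E x)) = 54720 * K * d x y := by
    field_simp
    ring
  linarith

theorem Θ_symm (hρ : IsL1 ρ) (x y : X) : Θ h E ρ b x y = Θ h E ρ b y x :=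
  (isL1_Θ hρ).symm x y

/-- upper bound -/
theorem Θ_upper (H : Lines d h S E) (hρ : IsL1 ρ) (hK : ∀ x y, ρ x y ≤ K * d x y) (hK0 : 0 ≤ K)
    (hb : ∀ i x, w h E i x ≠ 0 → d x (b i) ≤ 38 * D E x) {x y : X} {r : ℝ}
    (hr : d x y ≤ r ∨ D E x + D E y ≤ r) : Θ h E ρ b x y ≤ 54768 * K * r := by
  have hDx := H.D_nonneg x
  have hDy := H.D_nonneg y
  have hd := H.nonneg x y
  have crude := H.Θ_le hρ hK hK0 hb x y
  rcases hr with hr | hr
  · have hr0 : 0 ≤ r := hd.trans hr
    have hKr : K * d x y ≤ K * r := mul_le_mul_of_nonneg_left hr hK0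
    by_cases h1 : d x y ≤ D E x / 4 ∧ D E y ≤ D E x ∧ 0 < D E x
    · have := H.Θ_local hρ hK hK0 hb h1.2.2 h1.2.1 h1.1
      nlinarith
    · by_cases h2 : d y x ≤ D E y / 4 ∧ D E x ≤ D E y ∧ 0 < D E y
      · have := H.Θ_local hρ hK hK0 hb h2.2.2 h2.2.1 h2.1
        rw [Θ_symm hρ x y, H.symm y x] at *
        nlinarith
      · have h3 : D E x + D E y ≤ 8 * d x y := by
          rw [H.symm y x] at h2
          rcases le_total (D E y) (D E x) with h4 | h4
          · by_cases h5 : 0 < D E x
            · have : ¬ d x y ≤ D E x / 4 := fun h => h1 ⟨h, h4, h5⟩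
              linarith
            · linarith
          · by_cases h5 : 0 < D E y
            · have : ¬ d x y ≤ D E y / 4 := fun h => h2 ⟨h, h4, h5⟩
              linarith
            · linarith
        have h4 : K * (D E x + D E y) ≤ K * (8 * r) :=
          mul_le_mul_of_nonneg_left (by linarith) hK0
        nlinarith [mul_nonneg hK0 hr0]
  · have hr0 : 0 ≤ r := by linarith
    have h4 : K * (D E x + D E y) ≤ K * r := mul_le_mul_of_nonneg_left hr hK0
    nlinarith [mul_nonneg hK0 hr0]

/-- lower bound: either the copies give `ρ`, or both points have small distance to base points -/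
theorem Θ_lower (H : Lines d h S E) (hρ : IsL1 ρ) (hle : ∀ x y, d x y ≤ ρ x y)
    (hbS : ∀ i, b i ∈ S i.1) (x y : X) :
    ρ x y ≤ 2 * Θ h E ρ b x y ∨
    ∃ a c, (∃ σ, a ∈ S σ) ∧ (∃ τ, c ∈ S τ) ∧ d x a + d y c ≤ 2 * Θ h E ρ b x y := by
  by_cases hm : 1 / 2 ≤ ∑ i ∈ idx h E, min (w h E i x) (w h E i y)
  · left
    have h1 : (∑ i ∈ idx h E, min (w h E i x) (w h E i y)) * ρ x y ≤ Θ h E ρ b x y := by
      unfold Θ
      rw [sum_mul]
      refine sum_le_sum fun i _ => ?_
      unfold chart
      have h2 := mul_nonneg (le_max_left 0 (w h E i x - w h E i y)) (hρ.nonneg x (b i))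
      have h3 := mul_nonneg (le_max_left 0 (w h E i y - w h E i x)) (hρ.nonneg y (b i))
      linarith
    have h2 := mul_le_mul_of_nonneg_right hm (hρ.nonneg x y)
    linarith
  · right
    rw [not_le] at hm
    -- the two halves
    have key : ∀ x y, ∑ i ∈ idx h E, min (w h E i x) (w h E i y) < 1 / 2 →
        ∃ a, (∃ σ, a ∈ S σ) ∧
          d x a ≤ 2 * ∑ i ∈ idx h E, max 0 (w h E i x - w h E i y) * ρ x (b i) := by
      intro x y hm
      rcases (H.D_nonneg x).eq_or_lt with h0 | h0
      · obtain ⟨σ, hσ⟩ : ∃ σ, E σ x = D E x := by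
          unfold D
          rcases min_choice (E true x) (E false x) with h | h
          · exact ⟨true, h.symm⟩
          · exact ⟨false, h.symm⟩
        obtain ⟨a, ha, hxa⟩ := H.near σ x
        refine ⟨a, ⟨σ, ha⟩, ?_⟩
        rw [hxa, hσ, ← h0]
        have : 0 ≤ ∑ i ∈ idx h E, max 0 (w h E i x - w h E i y) * ρ x (b i) :=
          sum_nonneg fun i _ => mul_nonneg (le_max_left _ _) (hρ.nonneg _ _)
        linarith
      · have hw := H.sum_w_ge h0
        have e : ∑ i ∈ idx h E, w h E i x = ∑ i ∈ idx h E, min (w h E i x) (w h E i y) +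
            ∑ i ∈ idx h E, max 0 (w h E i x - w h E i y) := by
          rw [← sum_add_distrib]
          refine sum_congr rfl fun i _ => ?_
          rcases le_total (w h E i x) (w h E i y) with h | h
          · rw [min_eq_left h, max_eq_left (by linarith)]; ring
          · rw [min_eq_right h, max_eq_right (by linarith)]; ring
        obtain ⟨i, _, _, hi⟩ := exists_base (idx h E) (fun i => max 0 (w h E i x - w h E i y))
          (fun i => ρ x (b i)) (fun i _ => le_max_left _ _) (fun i _ => hρ.nonneg _ _)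
          (by linarith)
        exact ⟨b i, ⟨i.1, hbS i⟩, (hle _ _).trans hi⟩
    obtain ⟨a, haS, ha⟩ := key x y hm
    obtain ⟨c, hcS, hc⟩ := key y x (by
      refine lt_of_eq_of_lt (sum_congr rfl fun i _ => min_comm _ _) hm)
    refine ⟨a, c, haS, hcS, ?_⟩
    have h1 : ∑ i ∈ idx h E, max 0 (w h E i x - w h E i y) * ρ x (b i) +
        ∑ i ∈ idx h E, max 0 (w h E i y - w h E i x) * ρ y (b i) ≤ Θ h E ρ b x y := by
      unfold Θ
      rw [← sum_add_distrib]
      refine sum_le_sum fun i _ => ?_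
      unfold chart
      have h2 := mul_nonneg (le_min (w_nonneg (h := h) (E := E) i x) (w_nonneg (h := h) (E := E) i y))
        (hρ.nonneg x y)
      linarith
    linarith

end Lines

/-- **Cutting a finite metric space open along a line.** `X` (metric `d'`) is the space `V`
(metric `d`) cut open along a line: `π : X → V` is nonexpanding with a section `s`; `S true` and
`S false` are the two copies of the line. If `X` embeds with distortion `K`, so does `V` with
distortion `219073 * K`. -/
theorem cut_open {X V : Type} [Finite X] [Finite V] [Nonempty X] {d' : X → X → ℝ}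
    {d : V → V → ℝ} {h : X → ℝ} {S : Bool → Set X} {E : Bool → X → ℝ} (H : Lines d' h S E)
    {K : ℝ} (hK : 1 ≤ K) (hemb : EmbedsL1 d' K) (π : X → V) (s : V → X) (hs : ∀ v, π (s v) = v)
    (hπ : ∀ x y, d (π x) (π y) ≤ d' x y) (hsymm : ∀ u v, d u v = d v u)
    (htri : ∀ u v w, d u w ≤ d u v + d v w)
    (hline : ∀ σ τ, ∀ a ∈ S σ, ∀ c ∈ S τ, d (π a) (π c) ≤ |h a - h c|)
    (hh : ∀ u v, |h (s u) - h (s v)| ≤ d u v)
    (hQ : ∀ u v, d' (s u) (s v) ≤ d u v ∨ Lines.D E (s u) + Lines.D E (s v) ≤ d u v) :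
    EmbedsL1 d (219073 * K) := by
  classical
  have := Fintype.ofFinite X
  obtain ⟨ρ, hρS, hle, hup, -⟩ := hemb.toL1S
  have hρ : IsL1 ρ := hρS.isL1
  obtain ⟨b, hbS, hb⟩ := H.exists_basePt
  have hK0 : 0 ≤ K := by linarith
  have hI : IsL1 (fun u v : V => 4 * Lines.Θ h E ρ b (s u) (s v)) :=
    ((Lines.isL1_Θ (h := h) (E := E) (b := b) hρ).comap s).smul (by norm_num)
  refine (hI.add (isL1_line fun v => h (s v))).embeds (fun u v => ?_) fun u v => ?_
  · -- no contraction
    have h0 : 0 ≤ Lines.Θ h E ρ b (s u) (s v) := (Lines.isL1_Θ hρ).nonneg _ _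
    have hab : 0 ≤ |h (s u) - h (s v)| := abs_nonneg _
    rcases H.Θ_lower hρ hle hbS (s u) (s v) with h1 | ⟨a, c, ⟨σ, ha⟩, ⟨τ, hc⟩, h1⟩
    · have h2 := hπ (s u) (s v)
      rw [hs, hs] at h2
      have h3 := hle (s u) (s v)
      linarith
    · have h2 := hπ (s u) a
      have h3 := hπ (s v) c
      rw [hs] at h2 h3
      have h4 := hline σ τ a ha c hc
      have h5 := htri u (π a) v
      have h6 := htri (π a) (π c) v
      rw [hsymm (π c) v] at h6
      have h7 := H.hlip (s u) a
      have h8 := H.hlip (s v) c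
      have h9 : |h a - h c| ≤ |h (s u) - h a| + |h (s u) - h (s v)| + |h (s v) - h c| := by
        have e : h a - h c = -(h (s u) - h a) + (h (s u) - h (s v)) + (h (s v) - h c) := by ring
        rw [e]
        refine (abs_add_le _ _).trans (add_le_add_left ((abs_add_le _ _).trans ?_) _)
        rw [abs_neg]
      linarith
  · -- expansion
    have hd0 : 0 ≤ d u v := (abs_nonneg _).trans (hh u v)
    have h1 := H.Θ_upper hρ hup hK0 hb (hQ u v)
    have h2 := hh u v
    have h3 : d u v ≤ K * d u v := le_mul_of_one_le_left hd0 hK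
    nlinarith

end Vale.Agent.P235.H318
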