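import Vale.Agent.P235.R2.H318.Glue

/-!
Cutting a graph metric open along a line (helper318).
-/

namespace Vale.Agent.P235.H318

open Finset Vale.Agent.P235

theorem exists_E {X : Type} [Finite X] (d : X → X → ℝ) (S : Bool → Set X)
    (hS : ∀ σ, (S σ).Nonempty) : ∃ E : Bool → X → ℝ, (∀ σ x, ∃ a ∈ S σ, d x a = E σ x) ∧
      ∀ σ x, ∀ a ∈ S σ, E σ x ≤ d x a := by
  have hmin : ∀ σ x, ∃ a ∈ S σ, ∀ c ∈ S σ, d x a ≤ d x c := fun σ x =>
    Set.exists_min_image (S σ) (fun a => d x a) (Set.toFinite _) (hS σ)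
  choose a ha hmin using hmin
  exact ⟨fun σ x => d x (a σ x), fun σ x => ⟨a σ x, ha σ x, rfl⟩, fun σ x c hc => hmin σ x c hc⟩

/-- **Cutting a graph open along a line.** `π : G' → G` is a graph map preserving lengths, with a
section `s`; `A` is the line, `S true`, `S false` are its copies. -/
theorem cut_graph {X V : Type} [Finite X] [Finite V] {G : SimpleGraph V} {G' : SimpleGraph X}
    {ℓ : Sym2 V → ℝ} {ℓ' : Sym2 X → ℝ} (hc : G.Connected) (hc' : G'.Connected)
    (hℓ : ∀ e ∈ G.edgeSet, 0 < ℓ e) (hℓ' : ∀ e ∈ G'.edgeSet, 0 < ℓ' e)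
    {K : ℝ} (hK : 1 ≤ K) (hemb : EmbedsL1 (pathDist G' ℓ') K) (π : X → V) (s : V → X)
    (hs : ∀ v, π (s v) = v) (hπ : ∀ x y, G'.Adj x y → G.Adj (π x) (π y) ∧
      ℓ' s(x, y) = ℓ s(π x, π y))
    (A : Set V) (S : Bool → Set X) (hS : ∀ σ, (S σ).Nonempty) (hSA : ∀ σ, ∀ x ∈ S σ, π x ∈ A)
    (hsA : ∀ v ∈ A, s v ∈ S true) (h : V → ℝ) (hh : ∀ u v, G.Adj u v → |h u - h v| ≤ ℓ s(u, v))
    (hline : ∀ σ, ∀ a ∈ S σ, ∀ c ∈ S σ, pathDist G' ℓ' a c ≤ |h (π a) - h (π c)|)
    (hA : ∀ a ∈ A, ∀ c ∈ A, pathDist G ℓ a c ≤ |h a - h c|)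
    (hlift : ∀ u v, u ∉ A → v ∉ A → G.Adj u v → G'.Adj (s u) (s v))
    (hliftA : ∀ a v, a ∈ A → v ∉ A → G.Adj v a → ∃ σ, ∃ a' ∈ S σ, π a' = a ∧ G'.Adj (s v) a') :
    EmbedsL1 (pathDist G ℓ) (219073 * K) := by
  have hd := pathDist_isMet hc hℓ
  have hd' := pathDist_isMet hc' hℓ'
  obtain ⟨E, hE1, hE2⟩ := exists_E (pathDist G' ℓ') S hS
  have : Nonempty X := hc'.nonempty
  have hh' : ∀ x y, |h x - h y| ≤ pathDist G ℓ x y := by
    intro x y
    have : Nonempty (G.Walk x y) := hc x y
    exact le_ciInf fun p => walk_lip hh p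
  have hππ : ∀ x y, pathDist G ℓ (π x) (π y) ≤ pathDist G' ℓ' x y := by
    intro x y
    have := pathDist_semi (G := G') (ℓ := ℓ') (ρ := fun x y => pathDist G ℓ (π x) (π y)) (K := 1)
      hc' one_pos (fun x => hd.self _) (fun x y z => hd.tri _ _ _) (fun u v huv => by
        have h1 := pathDist_adj hℓ (hπ u v huv).1
        rw [one_mul, (hπ u v huv).2]
        exact h1) x y
    rwa [one_mul] at this
  have H : Lines (pathDist G' ℓ') (fun x => h (π x)) S E :=
    { nonneg := fun x y => pathDist_nonneg hℓ' x y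
      symm := hd'.symm
      tri := hd'.tri
      hlip := fun x y => (hh' _ _).trans (hππ x y)
      line := hline
      near := hE1
      le := hE2 }
  -- the distance to the line is 1-Lipschitz on the edges of `G`
  have hDA : ∀ v ∈ A, Lines.D E (s v) = 0 := by
    intro v hv
    refine le_antisymm ?_ (H.D_nonneg _)
    have h1 := hE2 true (s v) (s v) (hsA v hv)
    rw [hd'.self] at h1
    exact (Lines.D_le true _).trans h1
  have hnear : ∀ v a, a ∈ A → v ∉ A → G.Adj v a → Lines.D E (s v) ≤ ℓ s(v, a) := by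
    intro v a ha hv hva
    obtain ⟨σ, a', ha', hπa, hadj⟩ := hliftA a v ha hv hva
    have h1 := hE2 σ (s v) a' ha'
    have h2 := pathDist_adj hℓ' hadj
    rw [(hπ _ _ hadj).2, hs, hπa] at h2
    exact (Lines.D_le σ _).trans (h1.trans h2)
  have hlip : ∀ u v, G.Adj u v → |Lines.D E (s u) - Lines.D E (s v)| ≤ ℓ s(u, v) := by
    intro u v huv
    by_cases hu : u ∈ A
    · by_cases hv : v ∈ A
      · rw [hDA u hu, hDA v hv]; simp; exact (hℓ _ huv).le
      · rw [hDA u hu, zero_sub, abs_neg, abs_of_nonneg (H.D_nonneg _), Sym2.eq_swap]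
        exact hnear v u hu hv huv.symm
    · by_cases hv : v ∈ A
      · rw [hDA v hv, sub_zero, abs_of_nonneg (H.D_nonneg _)]
        exact hnear u v hv hu huv
      · have h1 := hlift u v hu hv huv
        have h2 := pathDist_adj hℓ' h1
        rw [(hπ _ _ h1).2, hs, hs] at h2
        exact (H.D_lip _ _).trans h2
  have hQw : ∀ u v (p : G.Walk u v), pathDist G' ℓ' (s u) (s v) ≤ (p.edges.map ℓ).sum ∨
      Lines.D E (s u) + Lines.D E (s v) ≤ (p.edges.map ℓ).sum := by
    intro u v p
    induction p with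
    | nil => left; rw [hd'.self]; simp
    | @cons u x v hux p ih =>
      have hlen := walk_lip hlip p
      rw [abs_le] at hlen
      rw [SimpleGraph.Walk.edges_cons, List.map_cons, List.sum_cons]
      have hl := hlip u x hux
      rw [abs_le] at hl
      by_cases hu : u ∈ A
      · right
        have h0 := hDA u hu
        linarith
      · by_cases hx : x ∈ A
        · right
          have h0 := hDA x hx
          linarith
        · rcases ih with ih | ih
          · left
            have h1 := hlift u x hu hx hux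
            have h2 := pathDist_adj hℓ' h1
            rw [(hπ _ _ h1).2, hs, hs] at h2
            have h3 := hd'.tri (s u) (s x) (s v)
            linarith
          · right; linarith
  refine cut_open H hK hemb π s hs hππ hd.symm hd.tri (fun σ τ a ha c hc => ?_) (fun u v => ?_)
    fun u v => ?_
  · exact hA _ (hSA σ a ha) _ (hSA τ c hc)
  · rw [hs, hs]; exact hh' u v
  · have : Nonempty (G.Walk u v) := hc u v
    have h1 : min (pathDist G' ℓ' (s u) (s v)) (Lines.D E (s u) + Lines.D E (s v)) ≤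
        pathDist G ℓ u v := by
      refine le_ciInf fun p => ?_
      rcases hQw u v p with h | h
      · exact (min_le_left _ _).trans h
      · exact (min_le_right _ _).trans h
    exact min_le_iff.mp h1

end Vale.Agent.P235.H318
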