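import Vale.Agent.P235.R2.H318.CycPlane
import Vale.Agent.P235.R2.H168.Plane

/-!
Plane graphs with a height function of slopes in `[1/D, 1]` with exactly one local minimum and one
local maximum, anywhere (helper318).
-/

namespace Vale.Agent.P235.H318

open Vale.Agent.P235 Vale.Agent.P235.Red

/-- a plane graph with the lengths of a height function without local extrema besides `s`, `t` -/
theorem plane_height_anywhere {C : ℝ} (hC : 1 ≤ C) (hRC : RowCyc) (hM : MStarLL C) (V : Type)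
    [Finite V] (G : SimpleGraph V) (σ : Equiv.Perm G.Dart) (h : V → ℝ) (s t : V)
    (hc : G.Connected) (hP : PlaneMap G σ) (hU : UpDown G h s t) :
    EmbedsL1 (pathDist G (R2.H168.hlen h)) (4000000 * C * ((ll (Nat.card V) : ℝ) + 1)) := by
  have hf : ∀ N, (0 : ℝ) ≤ C * ((ll N : ℝ) + 3) := fun N => by positivity
  have hpos : ∀ u v, G.Adj u v → 0 < R2.H168.hlen h s(u, v) := fun u v ha =>
    abs_pos.2 (sub_ne_zero.2 (hU.ne u v ha))
  have hℓ : ∀ e ∈ G.edgeSet, 0 < R2.H168.hlen h e := fun e he => by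
    induction e with
    | _ u v => exact hpos u v he
  obtain ⟨P, hS⟩ := hRC V G σ h s t hc hP hU
  obtain ⟨Ω, m, μ, g, hg⟩ := cyc_bag_theorem hM hc hℓ
    (cycBags_of_sweep hS (fun u v _ => rfl) hpos) (hf _)
  refine ⟨Ω, m, μ, g, fun x y => ⟨(hg x y).1, (hg x y).2.trans ?_⟩⟩
  refine mul_le_mul_of_nonneg_right ?_ (pd_nonneg hℓ x y)
  have h2 : (ll (Nat.card V ^ 2) : ℝ) ≤ (ll (Nat.card V) : ℝ) + 1 := by exact_mod_cast ll_sq _
  have h3 : C * (ll (Nat.card V ^ 2) : ℝ) ≤ C * ((ll (Nat.card V) : ℝ) + 1) :=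
    mul_le_mul_of_nonneg_left h2 (by linarith)
  have : (0 : ℝ) ≤ C * (ll (Nat.card V) : ℝ) := mul_nonneg (by linarith) (Nat.cast_nonneg _)
  linarith

/-- **Slopes in `[1/D, 1]`, extrema anywhere.**  A plane graph with arbitrary positive lengths `ℓ`
and a function `h` with `ℓ(uv)/D ≤ |h u - h v| ≤ ℓ(uv)` on all edges which has only one local minimum
`s` and only one local maximum `t`. -/
theorem plane_slope_anywhere {C : ℝ} (hC : 1 ≤ C) (hRC : RowCyc) (hM : MStarLL C) (V : Type)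
    [Finite V] (G : SimpleGraph V) (σ : Equiv.Perm G.Dart) (ℓ : Sym2 V → ℝ) (h : V → ℝ)
    (s t : V) (D : ℝ) (hD : 0 ≤ D) (hc : G.Connected) (hP : PlaneMap G σ) (hU : UpDown G h s t)
    (h1 : ∀ u v, G.Adj u v → |h u - h v| ≤ ℓ s(u, v))
    (h2 : ∀ u v, G.Adj u v → ℓ s(u, v) ≤ D * |h u - h v|) :
    EmbedsL1 (pathDist G ℓ) (4000000 * C * D * ((ll (Nat.card V) : ℝ) + 1)) := by
  have hE := plane_height_anywhere hC hRC hM V G σ h s t hc hP hU
  have e1 : ∀ x y, pathDist G ℓ x y ≤ D * pathDist G (R2.H168.hlen h) x y :=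
    R2.H673.pathDist_le_mul hD (fun u v ha => (abs_nonneg _).trans (h1 u v ha)) h2
  have e2 : ∀ x y, pathDist G (R2.H168.hlen h) x y ≤ 1 * pathDist G ℓ x y :=
    R2.H673.pathDist_le_mul zero_le_one (fun u v _ => abs_nonneg _)
      (fun u v ha => by rw [one_mul]; exact h1 u v ha)
  refine R2.H673.embedsL1_scale hD hE e1 (fun x y => ?_)
  have h3 : (0 : ℝ) ≤ 4000000 * C * D * ((ll (Nat.card V) : ℝ) + 1) := by positivity
  have h4 := mul_le_mul_of_nonneg_left (e2 x y) h3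
  rw [one_mul] at h4
  calc D * (4000000 * C * ((ll (Nat.card V) : ℝ) + 1) * pathDist G (R2.H168.hlen h) x y) =
      4000000 * C * D * ((ll (Nat.card V) : ℝ) + 1) * pathDist G (R2.H168.hlen h) x y := by ring
    _ ≤ _ := h4

end Vale.Agent.P235.H318
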